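import Vale.Agent.P267.H462.Gl
import Vale.Agent.P267.H462.Alg
import Vale.Agent.P267.H551.OutK
import Vale.Agent.P267.H551.OutT

/-!
# P267 / H185 (RRC-GLUE, F1): the interface `PS` from the glue data
-/

set_option linter.unusedSectionVars false

open scoped Manifold ContDiff ComplexConjugate Matrix
open MeasureTheory Set Filter Topology

noncomputable section

namespace Vale.Agent.P267.H185

open Vale.Agent.P267.FL Vale.Agent.P267.RR Vale.Agent.P267.H462 Vale.Agent.P267.H551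
open Vale.Agent.P267.H667 (cst)
open Vale.Agent.P267.H433 (Tr)

variable {X : Type*} [TopologicalSpace X] [ChartedSpace C2 X] {A : FinAt X}
  {V : Type} [NormedAddCommGroup V] [NormedSpace ℂ V]

section coe

variable {S : SB A V}

theorem coe_add (u v : S.Sec) : (u + v).1 = u.1 + v.1 := rfl

theorem coe_sub (u v : S.Sec) : (u - v).1 = u.1 - v.1 := rfl

theorem coe_sum {ι : Type*} (t : Finset ι) (u : ι → S.Sec) :
    (∑ i ∈ t, u i).1 = ∑ i ∈ t, (u i).1 := AddSubmonoidClass.coe_finsetSum _ _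

end coe

section main

variable [T2Space X] [CompactSpace X] [IsManifold 𝓘(ℂ, C2) ω X] {r : ℕ} {B : Bun A r}

/-- a chosen kernel of a local operator with smooth kernel -/
theorem IsLO.op_eq [FiniteDimensional ℂ V] {S : SB A V} {c : Fin A.N} {R : S.Sec →ₗ[ℂ] S.Sec}
    {k : C2 → C2 → (V →L[ℂ] V)} (h : IsLO S c R k) (u : S.Sec) :
    (R u).1 = (kernLO S c h.choose).op u.1 := by
  have h1 := h.choose_spec
  conv_lhs => rw [h1]
  exact kernLO_op S c h.choose zero_lt4 h.choose.lker u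

/-- the glued homotopy data -/
def hom (G : Gl B) : (puc B).Homot where
  B1 := G.B1
  B2 := G.B2
  T := G.T
  R0 a := LinearMap.id - G.B1 a ∘ₗ B.d0
  R1 a := LinearMap.id - (B.d0 ∘ₗ G.B1 a + G.B2 a ∘ₗ B.d1)
  R2 a := LinearMap.id - B.d1 ∘ₗ G.B2 a
  E1 a b := G.B1 b - G.B1 a - G.T a b ∘ₗ B.d1
  E2 a b := G.B2 b - G.B2 a + B.d0 ∘ₗ G.T a b
  h0 a s := by
    congr 1
    change G.B1 a (B.d0 s) = s - (s - G.B1 a (B.d0 s))
    abel
  h1 a u := by
    congr 1
    change B.d0 (G.B1 a u) + G.B2 a (B.d1 u) = u - (u - (B.d0 (G.B1 a u) + G.B2 a (B.d1 u)))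
    abel
  h2 a v := by
    congr 1
    change B.d1 (G.B2 a v) = v - (v - B.d1 (G.B2 a v))
    abel
  t1 a b u := by
    congr 2
    change G.B1 b u - G.B1 a u = G.T a b (B.d1 u) + (G.B1 b u - G.B1 a u - G.T a b (B.d1 u))
    abel
  t2 a b v := by
    congr 2
    change G.B2 b v - G.B2 a v = - B.d0 (G.T a b v) + (G.B2 b v - G.B2 a v + B.d0 (G.T a b v))
    abel

/-- the kernel chosen from a statement `∃ k, p k ∧ IsLO S c R k` -/
theorem exists_kern [FiniteDimensional ℂ V] {S : SB A V} {c : Fin A.N} {R : S.Sec →ₗ[ℂ] S.Sec}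
    {p : (C2 → C2 → (V →L[ℂ] V)) → Prop} (h : ∃ k, p k ∧ IsLO S c R k) :
    ∃ (κ : Kern S) (k : C2 → C2 → (V →L[ℂ] V)), p k ∧ (∀ u : S.Sec, (R u).1 = κ.op u.1) ∧
      ∀ a z, κ.k a a z z = lkFun S c k a a z z := by
  obtain ⟨k, hp, hk⟩ := h
  exact ⟨kernLO S c hk.choose, k, hp, fun u => IsLO.op_eq hk u, fun a z => rfl⟩

/-- the trace density of a local operator whose kernel vanishes on the diagonal -/
theorem trc_zero_diag [FiniteDimensional ℂ V] {S : SB A V} {c : Fin A.N}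
    {k : C2 → C2 → (V →L[ℂ] V)} (hk : ∀ x, k x x = 0) (a : Fin A.N) (z : C2) :
    trc V (lkFun S c k a a z z) = 0 := by
  by_cases hz : z ∈ A.ov a c
  · rw [trc_lkFun k hz, hk, map_zero, mul_zero]
  · exact trc_lkFun_zero k hz

open Classical in
theorem exists_PS (G : Gl B) (h0 : ∀ a, K0 G a) (h1 : ∀ a, K1 G a) (h2 : ∀ a, K2 G a)
    (h3 : ∀ a b, K3 G a b) (h4 : ∀ a b, K4 G a b) (h5 : ∀ a b c, K5 G a b c) :
    ∃ P : PS B, ∀ a, ∀ z ∈ A.O a, P.dens a z =
      -∑ a', ∑ b, ∑ c, (if z ∈ A.ov a a' then ((‖(A.J a a' z).det‖ ^ 2 : ℝ) : ℂ) *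
        trc (Fin r → ℂ) (((cst : ℂ) * cf A a' b c (A.tau a a' z)) •
          (Tr.r (TT B b c) (TT B a' b) (A.tau a a' z, A.tau a a' z) +
            Tr.r (TT B c a') (TT B a' c) (A.tau a a' z, A.tau a a' z))) else 0) := by
  choose κ0 k0 hk0 op0 tr0 using fun a => exists_kern (h0 a)
  choose κ1 k1 hk1 op1 tr1 using fun a => exists_kern (h1 a)
  choose κ2 k2 hk2 op2 tr2 using fun a => exists_kern (h2 a)
  choose κ3 k3 hk3 op3 tr3 using fun a b => exists_kern (h3 a b)
  choose κ4 k4 hk4 op4 tr4 using fun a b => exists_kern (h4 a b)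
  choose κ5 k5 hk5 op5 tr5 using fun a b c => exists_kern (h5 a b c)
  have bB1 : ∀ a, SBd (G.B1 a) := fun a => SBd_LO _ _ _ _ _
  have bB2 : ∀ a, SBd (G.B2 a) := fun a => SBd_LO _ _ _ _ _
  have bT : ∀ a b, SBd (G.T a b) := fun a b => SBd_LO _ _ _ _ _
  have bP1 : SBd (hom G).P1 := SBd.sum fun a _ => (SBd_op _).comp (bB1 a)
  have bP2 : SBd (hom G).P2 :=
    (SBd.sum fun a _ => (SBd_op _).comp (bB2 a)).add
      (SBd.sum fun a _ => SBd.sum fun b _ => ((SBd_op _).comp (SBd_op _)).comp (bT a b))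
  let K0' : Kern B.sb0 := kernSum Finset.univ κ0
  let K1' : Kern B.sb1 := kernAdd (kernSum Finset.univ κ1)
    (kernSum Finset.univ fun a => kernSum Finset.univ fun b => κ3 a b)
  let K2' : Kern B.sb2 := kernAdd (kernAdd (kernSum Finset.univ κ2)
    (kernSum Finset.univ fun a => kernSum Finset.univ fun b => κ4 a b))
    (kernSmul (-1) (kernSum Finset.univ fun a => kernSum Finset.univ fun b =>
      kernSum Finset.univ fun c => κ5 a b c))
  have e0 : ∀ u : B.sb0.Sec, K0'.op u.1 = ((hom G).S0 u).1 := by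
    intro u
    rw [kernSum_op, PUComplex.Homot.S0_apply, coe_sum]
    exact Finset.sum_congr rfl fun a _ => (op0 a u).symm
  have e1 : ∀ u : B.sb1.Sec, K1'.op u.1 = ((hom G).S1 u).1 := by
    intro u
    rw [kernAdd_op, kernSum_op, kernSum_op, PUComplex.Homot.S1_apply, coe_add, coe_sum, coe_sum]
    congr 1
    · exact Finset.sum_congr rfl fun a _ => (op1 a u).symm
    · refine Finset.sum_congr rfl fun a _ => ?_
      rw [kernSum_op, coe_sum]
      refine Finset.sum_congr rfl fun b _ => ?_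
      rw [← op3 a b u, BM.comp_op]
      rfl
  have e2 : ∀ u : B.sb2.Sec, K2'.op u.1 = ((hom G).S2 u).1 := by
    intro u
    rw [kernAdd_op, kernAdd_op, kernSmul_op, kernSum_op, kernSum_op, kernSum_op,
      PUComplex.Homot.S2_apply, coe_sub, coe_add, coe_sum, coe_sum, coe_sum, neg_one_smul,
      ← sub_eq_add_neg]
    congr 1
    · congr 1
      · exact Finset.sum_congr rfl fun a _ => (op2 a u).symm
      · refine Finset.sum_congr rfl fun a _ => ?_
        rw [kernSum_op, coe_sum]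
        refine Finset.sum_congr rfl fun b _ => ?_
        rw [← op4 a b u, BM.comp_op]
        rfl
    · refine Finset.sum_congr rfl fun a _ => ?_
      rw [kernSum_op, coe_sum]
      refine Finset.sum_congr rfl fun b _ => ?_
      rw [kernSum_op, coe_sum]
      refine Finset.sum_congr rfl fun c _ => ?_
      rw [← op5 a b c u, BM.comp_op, BM.comp_op]
      rfl
  obtain ⟨C0, -, hC0⟩ := bP1
  obtain ⟨C1, -, hC1⟩ := bP2
  refine ⟨{ P0 := (hom G).P1, P1 := (hom G).P2, bd0 := ⟨C0, hC0⟩, bd1 := ⟨C1, hC1⟩,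
            k0 := K0', k1 := K1', k2 := K2'
            eq0 := fun u => ?_, eq1 := fun u => ?_, eq2 := fun u => ?_ }, fun a z hz => ?_⟩
  · rw [e0, ← coe_sub]
    exact congrArg Subtype.val ((hom G).hom0 u)
  · rw [e1, ← coe_sub, ← coe_add]
    exact congrArg Subtype.val ((hom G).hom1 u)
  · rw [e2, ← coe_sub]
    exact congrArg Subtype.val ((hom G).hom2 u)
  · have t0 : trc (Fin r → ℂ) (K0'.k a a z z) = 0 := by
      change trc (Fin r → ℂ) (∑ i, (κ0 i).k a a z z) = 0
      rw [map_sum]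
      refine Finset.sum_eq_zero fun i _ => ?_
      rw [tr0, trc_zero_diag (hk0 i)]
    have t1 : trc (Fin 2 → Fin r → ℂ) (K1'.k a a z z) = 0 := by
      change trc (Fin 2 → Fin r → ℂ) ((∑ i, (κ1 i).k a a z z) +
        ∑ i, ∑ j, (κ3 i j).k a a z z) = 0
      rw [map_add, map_sum, map_sum]
      have s1 : ∑ i, trc (Fin 2 → Fin r → ℂ) ((κ1 i).k a a z z) = 0 :=
        Finset.sum_eq_zero fun i _ => by rw [tr1, trc_zero_diag (hk1 i)]
      have s2 : ∑ i, trc (Fin 2 → Fin r → ℂ) (∑ j, (κ3 i j).k a a z z) = 0 := by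
        refine Finset.sum_eq_zero fun i _ => ?_
        rw [map_sum]
        exact Finset.sum_eq_zero fun j _ => by rw [tr3, trc_zero_diag (hk3 i j)]
      rw [s1, s2, add_zero]
    have t2 : trc (Fin r → ℂ) (K2'.k a a z z) =
        -∑ a', ∑ b, ∑ c, trc (Fin r → ℂ) ((κ5 a' b c).k a a z z) := by
      change trc (Fin r → ℂ) ((∑ i, (κ2 i).k a a z z) + (∑ i, ∑ j, (κ4 i j).k a a z z) +
        (-1 : ℂ) • ∑ i, ∑ j, ∑ l, (κ5 i j l).k a a z z) = _
      rw [map_add, map_add, map_smul, map_sum, map_sum, map_sum]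
      have s1 : ∑ i, trc (Fin r → ℂ) ((κ2 i).k a a z z) = 0 :=
        Finset.sum_eq_zero fun i _ => by rw [tr2, trc_zero_diag (hk2 i)]
      have s2 : ∑ i, trc (Fin r → ℂ) (∑ j, (κ4 i j).k a a z z) = 0 := by
        refine Finset.sum_eq_zero fun i _ => ?_
        rw [map_sum]
        exact Finset.sum_eq_zero fun j _ => by rw [tr4, trc_zero_diag (hk4 i j)]
      rw [s1, s2, add_zero, zero_add, neg_one_smul]
      congr 1
      refine Finset.sum_congr rfl fun i _ => ?_
      rw [map_sum]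
      exact Finset.sum_congr rfl fun j _ => map_sum _ _ _
    change trc (Fin r → ℂ) (K0'.k a a z z) - trc (Fin 2 → Fin r → ℂ) (K1'.k a a z z) +
      trc (Fin r → ℂ) (K2'.k a a z z) = _
    rw [t0, t1, t2, sub_zero, zero_add]
    congr 1
    refine Finset.sum_congr rfl fun a' _ => Finset.sum_congr rfl fun b _ =>
      Finset.sum_congr rfl fun c _ => ?_
    rw [tr5]
    split_ifs with hz'
    · rw [trc_lkFun _ hz', hk5]
    · exact trc_lkFun_zero _ hz'

end main

end Vale.Agent.P267.H185
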